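import Mathlib

namespace Vale.Agent.Results.P271.A_ToricFujita

open Matrix

theorem result {n : ℕ} {ι : Type} [DecidableEq ι] (u : ι → Fin n → ℤ) (S : Finset (Finset ι))
    (smooth : ∀ σ ∈ S, ∃ b : Module.Basis σ ℤ (Fin n → ℤ), ∀ ρ : σ, b ρ = u ρ)
    (walls : ∀ σ ∈ S, ∀ ρ ∈ σ, ∃ τ ∈ S, ρ ∉ τ ∧ σ.erase ρ ⊆ τ)
    (a : ι → ℤ) (v : Finset ι → Fin n → ℤ)
    (cartier : ∀ σ ∈ S, ∀ ρ ∈ σ, v σ ⬝ᵥ u ρ = -a ρ)
    (ample : ∀ σ ∈ S, ∀ ρ, ρ ∉ σ → -a ρ < v σ ⬝ᵥ u ρ)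
    (m : ℤ) (hm : (n : ℤ) + 1 ≤ m) :
    ∀ σ ∈ S, ∃ w : Fin n → ℤ, (∀ ρ ∈ σ, w ⬝ᵥ u ρ = -(m * a ρ - 1)) ∧
      ∀ ρ, -(m * a ρ - 1) ≤ w ⬝ᵥ u ρ := by
  intro σ hσ
  obtain ⟨b, hb⟩ := smooth σ hσ
  -- the sum-of-coordinates functional and the vector representing it
  set φ : (Fin n → ℤ) →ₗ[ℤ] ℤ := ∑ ρ : σ, b.coord ρ with hφ
  set E : Fin n → ℤ := fun j => φ (Pi.single j 1) with hE
  have hEdot : ∀ y : Fin n → ℤ, E ⬝ᵥ y = φ y := by
    intro y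
    have := LinearMap.pi_apply_eq_sum_univ φ y
    rw [this]
    simp only [dotProduct, hE, smul_eq_mul]
    refine Finset.sum_congr rfl (fun j _ => ?_)
    rw [mul_comm]
    congr 2
    ext k
    simp [Pi.single_apply, eq_comm]
  have hφb : ∀ ρ : σ, φ (u ρ) = 1 := by
    intro ρ
    rw [← hb ρ, hφ]
    simp [Module.Basis.coord_apply, Finsupp.single_apply]
  have hcard : Fintype.card σ = n := by
    have h1 := Module.finrank_eq_card_basis b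
    simpa using h1.symm
  have hw : ∀ y : Fin n → ℤ, (m • v σ + E) ⬝ᵥ y = m * (v σ ⬝ᵥ y) + φ y := by
    intro y
    rw [add_dotProduct, smul_dotProduct, hEdot, smul_eq_mul]
  have hrepr : ∀ (x y : Fin n → ℤ), x ⬝ᵥ y = ∑ ρ : σ, b.repr y ρ * (x ⬝ᵥ u ρ) := by
    intro x y
    conv_lhs => rw [← b.sum_repr y]
    rw [dotProduct_sum]
    refine Finset.sum_congr rfl (fun ρ _ => ?_)
    rw [dotProduct_smul, hb ρ, smul_eq_mul]
  refine ⟨m • v σ + E, ?_, ?_⟩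
  · intro ρ hρ
    rw [hw, cartier σ hσ ρ hρ, hφb ⟨ρ, hρ⟩]
    ring
  · intro ρ₀
    by_cases hρ₀ : ρ₀ ∈ σ
    · rw [hw, cartier σ hσ ρ₀ hρ₀, hφb ⟨ρ₀, hρ₀⟩]
      have : -(m * a ρ₀ - 1) = m * -a ρ₀ + 1 := by ring
      rw [this]
    · have hg : 1 ≤ a ρ₀ + v σ ⬝ᵥ u ρ₀ := by
        have := ample σ hσ ρ₀ hρ₀
        omega
      set g : ℤ := a ρ₀ + v σ ⬝ᵥ u ρ₀ with hgdef
      have hc : ∀ ρ : σ, -g ≤ b.repr (u ρ₀) ρ := by
        intro ρ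
        obtain ⟨τ, hτ, hρτ, hsub⟩ := walls σ hσ ρ ρ.2
        have hl : 1 ≤ v τ ⬝ᵥ u ρ - v σ ⬝ᵥ u ρ := by
          have h1 := ample τ hτ ρ hρτ
          have h2 := cartier σ hσ ρ ρ.2
          omega
        have hτ0 : 0 ≤ a ρ₀ + v τ ⬝ᵥ u ρ₀ := by
          by_cases h : ρ₀ ∈ τ
          · have := cartier τ hτ ρ₀ h
            omega
          · have := ample τ hτ ρ₀ h
            omega
        have hdiff : v τ ⬝ᵥ u ρ₀ - v σ ⬝ᵥ u ρ₀
            = b.repr (u ρ₀) ρ * (v τ ⬝ᵥ u ρ - v σ ⬝ᵥ u ρ) := by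
          rw [hrepr (v τ) (u ρ₀), hrepr (v σ) (u ρ₀), ← Finset.sum_sub_distrib]
          rw [Finset.sum_eq_single ρ]
          · ring
          · intro ρ' _ hne
            have hρ'τ : (ρ' : ι) ∈ τ := by
              apply hsub
              rw [Finset.mem_erase]
              exact ⟨fun h => hne (Subtype.ext h), ρ'.2⟩
            rw [cartier τ hτ ρ' hρ'τ, cartier σ hσ ρ' ρ'.2]
            ring
          · intro h
            exact absurd (Finset.mem_univ ρ) h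
        nlinarith
      have hsum : -(n : ℤ) * g ≤ φ (u ρ₀) := by
        have h1 : φ (u ρ₀) = ∑ ρ : σ, b.repr (u ρ₀) ρ := by
          rw [hφ]
          simp [Module.Basis.coord_apply]
        rw [h1]
        have h2 : ∑ _ρ : σ, (-g) ≤ ∑ ρ : σ, b.repr (u ρ₀) ρ :=
          Finset.sum_le_sum (fun ρ _ => hc ρ)
        simp only [Finset.sum_const, Finset.card_univ, hcard, nsmul_eq_mul] at h2
        linarith
      rw [hw]
      nlinarith
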